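import Mathlib
import Vale.Agent.P063.Defs
import Vale.Agent.P063.Final

namespace Vale.Agent.Results.P063.Main

open Vale.Agent.P063

/-- The Friedgut-Kalai conjectures on the threshold width of graph (`r = 2`) and hypergraph
properties. -/
theorem result (r : ℕ) (hr : 2 ≤ r) (ε : ℝ) (h0 : 0 < ε) (h1 : ε < 1 / 2) :
    ∃ C : ℝ, ∀ n : ℕ, r ≤ n → ∀ P : Set (Edge n r → Bool), Invariant P → Increasing P →
      P.Nonempty → P ≠ Set.univ → width ε P ≤ C * Real.log n ^ (-((r : ℝ) / (r - 1))) := by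
  have hr' : (2 : ℝ) ≤ r := by exact_mod_cast hr
  have hρ : (r : ℝ) / (r - 1) ≤ 2 := by rw [div_le_iff₀ (by linarith)]; linarith
  have hρ1 : 1 ≤ (r : ℝ) / (r - 1) := by rw [le_div_iff₀ (by linarith)]; linarith
  obtain ⟨K, hK⟩ : ∃ K : ℝ, K = 4 * r + 1024 * r * 2 ^ r := ⟨_, rfl⟩
  have hK0 : 0 < K := by rw [hK]; positivity
  refine ⟨2 + K / ε ^ 2 + (r + 10 ^ 5) ^ ((r : ℝ) / (r - 1)), fun n hn P hi hm hP _ => ?_⟩
  have hn' : (2 : ℝ) ≤ n := by exact_mod_cast hr.trans hn
  have hL : 0 < Real.log n := Real.log_pos (by linarith)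
  have he : Real.exp (Real.log n) = n := Real.exp_log (by linarith)
  generalize Real.log n = L at hL he
  have hη := Real.rpow_pos_of_pos hL (-((r : ℝ) / (r - 1)))
  rw [add_mul]
  rcases le_total L (r + 10 ^ 5) with h | h
  · refine (width_le_one hm hP h0).trans (le_add_of_nonneg_of_le (by positivity) ?_)
    rw [Real.rpow_neg hL.le, ← div_eq_mul_inv, le_div_iff₀ (Real.rpow_pos_of_pos hL _), one_mul]
    gcongr
  refine le_add_of_le_of_nonneg (width_le hm hP h0 h1 hη hK0 fun q q0 q1 => ?_) (by positivity)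
  have hE : 2 * L ^ 2 ≤ Real.exp (L / 16) := by
    refine le_trans ?_ (Real.pow_div_factorial_le_exp _ (by positivity) 3)
    have : (10 : ℝ) ^ 5 * L ^ 2 ≤ L * L ^ 2 := by gcongr; linarith
    norm_num [Nat.factorial] at this ⊢
    nlinarith
  have h2 : 1 / L ^ 2 ≤ L ^ (-((r : ℝ) / (r - 1))) := by
    refine le_trans ?_ (Real.rpow_le_rpow_of_exponent_le (by linarith) (neg_le_neg hρ))
    rw [Real.rpow_neg (by linarith), Real.rpow_two, ← one_div]
  have h3 : L ^ (-((r : ℝ) / (r - 1))) ≤ 1 / 2 := by linarith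
  have h4 : Real.exp (-(L / 16)) ≤ 1 / L ^ 2 / 2 := by
    rw [Real.exp_neg, ← one_div, div_div, mul_comm]
    exact one_div_le_one_div_of_le (by positivity) hE
  rw [mu_eq, hK]
  refine var_final (by linarith) (by linarith) hr (ind_b01 P) (ind_inv hi) he (by linarith) hE ?_
  unfold sg
  nlinarith [mul_nonneg (sub_nonneg.mpr q0) (sub_nonneg.mpr q1)]

end Vale.Agent.Results.P063.Main
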